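import Vale.Agent.Lib.P328B.Final
import Vale.Agent.Lib.P328B.Window
import Vale.Agent.Lib.P328B.CouplingAll

/-!
P328, Q1: an FPRAS (and a polynomial time sampler with polynomial dependence on the accuracy) for
contingency tables with margins written in binary, for all margins.

The number of chain steps used is `T * J * w * J * k`, with the parameters below.
-/

namespace Vale.Agent.Results.P328.A00_binary

open Finset Vale.Agent.Lib.P328 Vale.Agent.Lib.P328Q Vale.Agent.Lib.P328U Vale.Agent.Lib.P328B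

theorem result {m n : ℕ} [NeZero m] [NeZero n] (r : Fin m → ℕ) (c : Fin n → ℕ)
    (hrc : ∑ i, r i = ∑ j, c j) {ε δ : ℝ} (hε0 : 0 < ε) (hε1 : ε < 1) (hδ0 : 0 < δ) {L J k w T : ℕ}
    (hL : L = Nat.log 2 (∑ i, r i)) (hJ : J = m * (n * (L + 1)))
    (hk : (2 * zPar m n L ε) ^ 504 ≤ k) (hw : 512 * (zPar m n L ε) ^ 3 ≤ w)
    (hT : 3 * Real.log (1 / δ) ≤ T) :
    ((∀ y, 0 ≤ annealB L k J r c y) ∧ (∀ y, y ∉ Tab r c → annealB L k J r c y = 0) ∧
      ∑ y ∈ Tab r c, annealB L k J r c y = 1 ∧ tvUnif r c (annealB L k J r c) ≤ ε) ∧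
    (∀ j : Fin J, (∀ y, 0 ≤ bLaw L k r c J j y) ∧ ∑ y ∈ bSet r c J j, bLaw L k r c J j y = 1) ∧
    1 - δ ≤ ∑ ω ∈ Fintype.piFinset (fun _ : Fin T => drawSpace (bSet r c J) w),
      if (1 - ε) * ((Tab r c).card : ℝ) ≤ medianOf (fun t => zHat (bHit r c J) (ω t)) ∧
          medianOf (fun t => zHat (bHit r c J) (ω t)) ≤ (1 + ε) * ((Tab r c).card : ℝ) then
        ∏ t, drawWeight (bLaw L k r c J) (ω t) else 0 := by
  have hCpl : CouplingAll m n := couplingAll m n
  have hWin : WindowFamily m n := fun _ s t _ hK hρ => window_all m n hK s t hρ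
  exact ⟨final_tv hCpl hWin r c hrc hε0 hε1 hL hJ hk,
    fun j => final_laws hCpl hWin r c hrc hε0 hε1 k hL hJ j,
    final_fpras hCpl hWin r c hrc hε0 hε1 hδ0 hL hJ hk hw hT⟩

end Vale.Agent.Results.P328.A00_binary
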