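import Vale.Agent.Lib.P328U.Fpras
import Vale.Agent.Lib.P328U.Weak

/-!
An FPRAS for the number of contingency tables with margins in unary, for all margins.
-/

namespace Vale.Agent.Results.P328.A1_fpras

open Finset Vale.Agent.Lib.P328 Vale.Agent.Lib.P328Q Vale.Agent.Lib.P328U

/-- For all margins `(r, c)` of total `N`: let `w`, `k`, `T` be at least the explicit polynomial bounds below.
Draw for each `t < T`, each stage `j < N` of the margin schedule, and each `i < w` a table `ω t j i` independently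
from the annealed sampler `stageLaw k r c N j` (which is a probability law on the tables of stage `j`). For each
`t` let `zHat` be the product over the stages of the inverse fraction of draws having a unit at the cell removed
at this stage. Then the median of these `T` numbers is within a factor `1 ± ε` of the number of tables,
with probability at least `1 - δ`. -/
theorem result {m n : ℕ} [NeZero m] [NeZero n] (r : Fin m → ℕ) (c : Fin n → ℕ) (N : ℕ)
    (hr : ∑ i, r i = N) (hc : ∑ j, c j = N) (ε δ : ℝ) (hε0 : 0 < ε) (hε1 : ε < 1) (hδ0 : 0 < δ)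
    (k w T : ℕ)
    (hk : 2 ^ 15 * (m : ℝ) ^ 10 * (n : ℝ) ^ 21 * (N : ℝ) ^ 28 *
      (8 * (n : ℝ) * ((N : ℝ) + 1)) ^ 12 / ε ^ 12 ≤ k)
    (hw0 : 0 < w) (hw : 512 * (n : ℝ) * (N : ℝ) / ε ^ 2 ≤ w)
    (hT : 3 * Real.log (1 / δ) ≤ T) :
    (∀ j : Fin N, (∀ y, 0 ≤ stageLaw k r c N j y) ∧
      (∀ y, y ∉ stageSet r c N j → stageLaw k r c N j y = 0) ∧
      ∑ y ∈ stageSet r c N j, stageLaw k r c N j y = 1) ∧
    1 - δ ≤ ∑ ω ∈ Fintype.piFinset (fun _ : Fin T => drawSpace (stageSet r c N) w),
      if (1 - ε) * ((Tab r c).card : ℝ) ≤ medianOf (fun t => zHat (stageHit r c N) (ω t)) ∧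
          medianOf (fun t => zHat (stageHit r c N) (ω t)) ≤ (1 + ε) * ((Tab r c).card : ℝ) then
        ∏ t, drawWeight (stageLaw k r c N) (ω t) else 0 := by
  have hW : WeakTabForm m n := fun r c g M hM0 hM s t => weak_tab r c g hM0 hM s t
  refine ⟨fun j => ?_, fpras_median_of_weak hW hr hc hε0 hε1 hδ0 hk hw0 hw hT⟩
  obtain ⟨h1, h2⟩ := schedM_sum hr hc j j.2.le
  have hfacts := anneal_facts hW h1 h2 k
  exact ⟨hfacts.1, hfacts.2.1, hfacts.2.2⟩

end Vale.Agent.Results.P328.A1_fpras
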