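import Vale.Agent.Lib.P328Q.Bridge
import Vale.Agent.Lib.P328Q.Mixing

/-!
A Poincare inequality for the `2 x 2` moves on all contingency tables, and rapid mixing of the lazy
Diaconis-Gangolli chain, with an explicit bound which is polynomial in `m, n` when the cells are bounded and
quasi-polynomial in general.
-/

namespace Vale.Agent.Results.P328.A2_quasi

open Vale.Agent.Lib.P328 Vale.Agent.Lib.P328Q

/-- For all margins `r, c` and every `M ≥ 2` with `min (r i) (c j) + 1 ≤ M` for all cells: the variance of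
every function `g` on the tables is at most `poinQ m n M = 4 m (m n + 1) M ^ 44400 (m n) ^ (444 log M)` times the
mean over the tables of the sum over all applicable moves `(i, k, j, l)` of the squared change of `g`;
and the lazy Diaconis-Gangolli chain from any table is within `ε` of uniform in total variation after
`t ≥ 4 m ^ 2 n ^ 2 poinQ m n M (m n log M + 2 log (1 / ε))` steps. -/
theorem result {m n : ℕ} (r : Fin m → ℕ) (c : Fin n → ℕ) (hm : 1 ≤ m) (hn : 1 ≤ n) (M : ℕ)
    (hM : 2 ≤ M) (hcell : ∀ i j, min (r i) (c j) + 1 ≤ M) :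
    (∀ g : Tb m (Fin n) → ℝ, tabVar r c g ≤ poinQ m n M * tabDir r c g) ∧
    ∀ x ∈ Tab r c, ∀ (t : ℕ) (ε : ℝ), 0 < ε →
      4 * (m : ℝ) ^ 2 * (n : ℝ) ^ 2 * poinQ m n M *
        ((m : ℝ) * n * Real.log M + 2 * Real.log (1 / ε)) ≤ t →
      tvUnif r c (dgLaw r c x t) ≤ ε := by
  have hP := poincare_nat r c hm hn M hM hcell
  refine ⟨hP, fun x hx t ε hε ht => mix_final hm hn hM hcell (poinQ m n M) ?_ hP hx t hε ht⟩
  have hm' : (0 : ℝ) < m := by exact_mod_cast hm
  have hn' : (0 : ℝ) < n := by exact_mod_cast hn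
  have hM' : (0 : ℝ) < M := by
    have : 0 < M := by omega
    exact_mod_cast this
  unfold poinQ
  have h1 : 0 < ((m : ℝ) * n) ^ (444 * Real.log M) := Real.rpow_pos_of_pos (by positivity) _
  positivity

end Vale.Agent.Results.P328.A2_quasi
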