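import Vale.Agent.Lib.P328.SmallTwo

/-!
Rapid mixing of the row-pair chain on contingency tables with all row sums at most two.
-/

namespace Vale.Agent.Results.P328.A_rows2

open Vale.Agent.Lib.P328

/-- For all `m ≥ 2`, `n`, all row sums `r i ≤ 2` and all column sums `c`, the row-pair heat-bath chain
on `Tab r c` started at any table is within `ε` of uniform in total variation after
`t ≥ (m (m - 1) / 2) (m n log 3 + 2 log (1 / ε))` steps. -/
theorem result {m n : ℕ} (hm : 2 ≤ m) (r : Fin m → ℕ) (c : Fin n → ℕ) (hr : ∀ i, r i ≤ 2)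
    {x : Tb m (Fin n)} (hx : x ∈ Tab r c) (t : ℕ) {ε : ℝ} (hε : 0 < ε)
    (ht : (m : ℝ) * ((m : ℝ) - 1) / 2 *
      ((m : ℝ) * (n : ℝ) * Real.log 3 + 2 * Real.log (1 / ε)) ≤ t) :
    tvUnif r c (rowLaw r c x t) ≤ ε := by
  refine tv_le_of_triples hm (allTriples_two hr c) hx t (R := 2) hr hε ?_
  simp only [Fintype.card_fin]
  norm_num
  norm_num at ht
  exact ht

end Vale.Agent.Results.P328.A_rows2
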