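import Mathlib
import Vale.Agent.Lib.P328_helper60.Capacity

namespace Vale.Agent.Results.P328.C_capacity

open Vale.Agent.Lib.P328_helper60.Tables
open Vale.Agent.Lib.P328_helper60.Capacity

theorem result {m n : ℕ} (r : Fin m → ℕ) (c : Fin n → ℕ) (hrc : ∑ a, r a = ∑ l, c l) :
    ((∀ x : Fin n → ℝ, (∀ l, 0 < x l) → (W r c : ℝ) * ∏ l, x l ^ c l ≤ ∏ a, h (r a) x) ∧
      ∃ x : Fin n → ℝ, (∀ l, 0 < x l) ∧
        ∏ a, h (r a) x ≤ (∏ l, (4 * ((c l : ℝ) + 1))) * ((W r c : ℝ) * ∏ l, x l ^ c l)) ∧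
    ((∀ y : Fin m → ℝ, (∀ a, 0 < y a) → (W r c : ℝ) * ∏ a, y a ^ r a ≤ ∏ l, h (c l) y) ∧
      ∃ y : Fin m → ℝ, (∀ a, 0 < y a) ∧
        ∏ l, h (c l) y ≤ (∏ a, (4 * ((r a : ℝ) + 1))) * ((W r c : ℝ) * ∏ a, y a ^ r a)) :=
  capacity_both r c hrc

end Vale.Agent.Results.P328.C_capacity
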