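import Mathlib
import Vale.Agent.Lib.P328_helper60.Tables

namespace Vale.Agent.Results.P328.R_rhombus

open Vale.Agent.Lib.P328_helper60.Tables

theorem result {m n : ℕ} (r : Fin m → ℕ) :
    (∀ (z z' : Fin n → ℕ) (p q : Fin n), (∀ j, j ≠ q → z' j ≤ z j) →
      W r (z + Pi.single p 1) * W r (z' + Pi.single q 1)
        ≤ W r (z + Pi.single q 1) * W r (z' + Pi.single p 1)) ∧
    (∀ (y : Fin n → ℕ) (i j k : Fin n),
      W r (y + Pi.single i 1 + Pi.single j 1) * W r (y + Pi.single k 1 + Pi.single k 1)
        ≤ W r (y + Pi.single i 1 + Pi.single k 1) * W r (y + Pi.single j 1 + Pi.single k 1)) := by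
  refine ⟨fun z z' p q h => transfer r z z' p q h, fun y i j k => ?_⟩
  have h := transfer r (y + Pi.single i 1) (y + Pi.single k 1) j k (by
    intro l hl
    simp only [Pi.add_apply, Pi.single_apply, if_neg hl]
    omega)
  have e : y + Pi.single k 1 + Pi.single j 1 = y + Pi.single j 1 + Pi.single k 1 := by
    rw [add_right_comm]
  rwa [e] at h

end Vale.Agent.Results.P328.R_rhombus
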