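import Vale.Agent.Lib.P328W.Final

/-!
A polynomial time almost-uniform sampler for contingency tables when `100 * r i * c j ≤ N` for all
cells: an explicit reversible chain on a soft margin layer `W`, followed by a Fisher and Yates
completion with the residual margins.
-/

namespace Vale.Agent.Results.P328.W_sparse

open Finset Vale.Agent.Lib.P328W

/-- The main theorem, for margins `r`, `c` with common sum `N = mass r ≥ 1000` and
`100 * (r i * c j) ≤ N` for all `i`, `j`. -/
theorem result {m n : ℕ} (r : Fin m → ℕ) (c : Fin n → ℕ) (hsum : mass r = mass c)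
    (hN : 1000 ≤ mass r) (hreg : ∀ i j, 100 * (r i * c j) ≤ mass r) :
    -- the total is polynomial in the dimensions
    100 * mass r ≤ m * n ∧
    -- the mixture over all layers (no wall) is exactly uniform
    (∑ W ∈ regS r c 0, wt r c W = ((Tab r c).card : ℝ)) ∧
    (∀ T ∈ Tab r c, ∑ W ∈ regS r c 0, wt r c W * fy r c W T = 1) ∧
    -- the chain is a Markov chain on the layers above the wall
    (∀ x ∈ regS r c (mass r / 10), (∀ y, 0 ≤ chainK r c x y) ∧
      ∑ y ∈ regS r c (mass r / 10), chainK r c x y = 1) ∧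
    -- the completion step is a probability law on the tables
    (∀ W ∈ regS r c (mass r / 10), (∀ T, 0 ≤ fy r c W T) ∧
      ∑ T ∈ Tab r c, fy r c W T = 1) ∧
    -- the law `piW` is a probability law and the up and down rates are in detailed balance
    (∑ W ∈ regS r c (mass r / 10), piW r c (mass r / 10) W = 1) ∧
    (∀ W ∈ regS r c (mass r / 10), 0 < piW r c (mass r / 10) W) ∧
    (∀ W ∈ regS r c (mass r / 10), ∀ α,
      piW r c (mass r / 10) W * upRate r c (mass r / 10) W α =
        piW r c (mass r / 10) (W + e α) * ((W α : ℝ) + 1)) ∧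
    -- the Poincare inequality with constant three for the continuous time generator
    (∀ f : (Cell m n → ℕ) → ℝ,
      (1 / 3) * ∑ W ∈ regS r c (mass r / 10), piW r c (mass r / 10) W *
          (f W - ∑ V ∈ regS r c (mass r / 10), piW r c (mass r / 10) V * f V) ^ 2 ≤
        ∑ W ∈ regS r c (mass r / 10), ∑ α,
          piW r c (mass r / 10) W * upRate r c (mass r / 10) W α * (f (W + e α) - f W) ^ 2) ∧
    -- the output of the sampler after `t` steps, in total variation to the uniform law
    (∀ t : ℕ, (1 / 2) * ∑ T ∈ Tab r c, |outLaw r c t T - 1 / ((Tab r c).card : ℝ)| ≤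
      (1 / 2) * Real.sqrt ((1 - 1 / (24 * (mass r : ℝ))) ^ t *
        (2 ^ mass r * ∏ i, ((r i).factorial : ℝ))) + 4 / 2 ^ (mass r / 20)) ∧
    -- polynomially many steps suffice, down to the exponentially small floor
    (∀ (ε : ℝ) (t : ℕ), 0 < ε → ε ≤ 1 →
      24 * (mass r : ℝ) * ((mass r : ℝ) * Real.log (2 * (mass r : ℝ)) + 2 * Real.log (1 / ε)) ≤
        (t : ℝ) →
      (1 / 2) * ∑ T ∈ Tab r c, |outLaw r c t T - 1 / ((Tab r c).card : ℝ)| ≤
        ε / 2 + 4 / 2 ^ (mass r / 20)) := by
  have hw := piW_w (r := r) (c := c) hN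
  have hs := hw.setup
  refine ⟨total_le_dims hsum hN hreg, sum_wt hsum, fun T hT => sum_mu hT,
    fun x hx => ⟨chainK_nonneg hsum hN hreg hx, chainK_sum hN hx⟩,
    fun W hW => ⟨fy_nonneg r c W, sum_fy hsum hW⟩, sum_piW (wall_le hN),
    fun W hW => hs.pos W hW, ?_, ?_, fun t => tv_out hsum hN hreg t, ?_⟩
  · intro W hW α
    rw [upRate_eq_rate hN hW, hs.p_mul_rate]
    unfold Vale.Agent.Lib.P328W.cond
    ring
  · intro f
    have h1 := poincare_final hsum hN hreg f
    have h2 : wmean (piW r c (mass r / 10)) (regS r c (mass r / 10)) f =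
        ∑ V ∈ regS r c (mass r / 10), piW r c (mass r / 10) V * f V := by
      unfold wmean
      rw [sum_piW (wall_le hN), div_one]
    rw [h2] at h1
    refine h1.trans (le_of_eq ?_)
    unfold dir
    refine Finset.sum_congr rfl (fun W hW => Finset.sum_congr rfl (fun α _ => ?_))
    rw [upRate_eq_rate hN hW, hs.p_mul_rate]
    unfold grad
    ring
  · intro ε t hε hε1 ht
    have h1 := tv_out hsum hN hreg t
    have h2 := decay_le (r := r) hN hε hε1 ht
    linarith

end Vale.Agent.Results.P328.W_sparse
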